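import Vale.Agent.Lib.P235.Main

open MeasureTheory

namespace Vale.Agent.Results.P235.A_main

/-- For every `C < 9/4` there is a finite connected graph of treewidth at most `3` which, with
unit edge lengths, has no embedding into any `L_1(Ω, μ)` with distortion at most `C`. -/
theorem result.{u} (C : ℝ) (hC : C < 9 / 4) :
    ∃ (V : Type) (_ : Fintype V) (G : SimpleGraph V),
      G.Connected ∧ Vale.Agent.Lib.P235.TreewidthLE G 3 ∧
      ∀ (Ω : Type u) (_ : MeasurableSpace Ω) (μ : Measure Ω) (g : V → Lp ℝ 1 μ),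
        ¬ ∀ x y : V, (G.dist x y : ℝ) ≤ ‖g x - g y‖ ∧ ‖g x - g y‖ ≤ C * G.dist x y :=
  Vale.Agent.Lib.P235.hub_main C hC

end Vale.Agent.Results.P235.A_main
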